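import Vale.Agent.P207.N4.Dim
import Vale.Agent.P207.N4.H575.T3.Top
import Vale.Agent.P207.N3.H646.JC

/-!
Line N3 of P207, package P2: the transition maps `τ x (φ (-t) x)` as jointly smooth families,
the logarithm of the determinant, uniform bounds.
-/

open Set Filter Topology Metric MeasureTheory
open scoped ContDiff

noncomputable section

namespace Vale.Agent.P207.N4.H646

open Vale.Agent.P207.N3 Vale.Agent.P207.N3.H646

variable [Dim]

set_option linter.unusedSectionVars false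

variable {Γ X B : Type} [Group Γ] [MetricSpace X] [ProperSpace X] [MulAction Γ X]
  [IsIsometricSMul Γ X] [TopologicalSpace B] [CompactSpace B] [T2Space B] [MulAction Γ B]
  [ContinuousConstSMul Γ B]

variable (L : Leaf Γ X B)

theorem ball_sub {u : E2} (hu : u ∈ ball (0 : E2) 3) : u ∈ closedBall (0 : E2) 3 :=
  ball_subset_closedBall hu

theorem e_tau {x y : X} {u : E2} (hu : u ∈ L.dm x y) : L.e y (L.τ x y u) = L.e x u :=
  L.e_inv (image_mono ball_subset_closedBall hu.2)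

theorem tau_mem {x y : X} {u : E2} (hu : u ∈ L.dm x y) : L.τ x y u ∈ ball (0 : E2) 3 :=
  L.inv_mem_ball le_rfl hu.2

theorem tau_of {x y : X} {u v : E2} (hv : v ∈ closedBall (0 : E2) 3)
    (h : L.e x u = L.e y v) : L.τ x y u = v := by
  rw [L.tau_eq, h, L.inv_e hv]

theorem mem_dm_of {x y : X} {u v : E2} (hu : u ∈ ball (0 : E2) 3) (hv : v ∈ ball (0 : E2) 3)
    (h : L.e x u = L.e y v) : u ∈ L.dm x y := ⟨hu, v, hv, h.symm⟩

theorem isOpen_image (y : X) : IsOpen (L.e y '' ball (0 : E2) 3) := by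
  have h := L.e_open.preimage (f := fun b : B => (y, b)) (by fun_prop)
  exact h

theorem isOpen_dm (x y : X) : IsOpen (L.dm x y) := by
  have h1 : ContinuousOn (L.e x) (ball 0 3) := (L.e_cont_x x).mono ball_subset_closedBall
  exact h1.isOpen_inter_preimage isOpen_ball (isOpen_image L y)

theorem tau_mem_dm {x y : X} {u : E2} (hu : u ∈ L.dm x y) : L.τ x y u ∈ L.dm y x :=
  ⟨tau_mem L hu, u, hu.1, (e_tau L hu).symm⟩

theorem tau_tau {x y : X} {u : E2} (hu : u ∈ L.dm x y) : L.τ y x (L.τ x y u) = u :=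
  tau_of L (ball_sub hu.1) (e_tau L hu)

theorem tau_smoothAt {x y : X} (h : L.em x = L.em y) {u : E2} (hu : u ∈ L.dm x y) :
    ContDiffAt ℝ ∞ (L.τ x y) u :=
  (L.tau_smooth x y h).contDiffAt ((isOpen_dm L x y).mem_nhds hu)

theorem tau_hasFDerivAt {x y : X} (h : L.em x = L.em y) {u : E2} (hu : u ∈ L.dm x y) :
    HasFDerivAt (L.τ x y) (fderiv ℝ (L.τ x y) u) u :=
  ((tau_smoothAt L h hu).differentiableAt (by simp)).hasFDerivAt

/-- cocycle rule -/
theorem tau_comp {x y z : X} {u : E2} (hu : u ∈ L.dm x y) (hv : L.τ x y u ∈ L.dm y z) :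
    u ∈ L.dm x z ∧ L.τ y z (L.τ x y u) = L.τ x z u := by
  have h1 : L.e z (L.τ y z (L.τ x y u)) = L.e x u := by rw [e_tau L hv, e_tau L hu]
  refine ⟨mem_dm_of L hu.1 (tau_mem L hv) h1.symm, ?_⟩
  exact (tau_of L (ball_sub (tau_mem L hv)) h1.symm).symm

/-- cocycle rule near a point -/
theorem tau_comp_eventually {x y z : X} (hxy : L.em x = L.em y) {u : E2} (hu : u ∈ L.dm x y)
    (hv : L.τ x y u ∈ L.dm y z) :
    L.τ x z =ᶠ[𝓝 u] fun w => L.τ y z (L.τ x y w) := by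
  have h1 : ∀ᶠ w in 𝓝 u, w ∈ L.dm x y := (isOpen_dm L x y).mem_nhds hu
  have h2 : ∀ᶠ w in 𝓝 u, L.τ x y w ∈ L.dm y z :=
    (tau_smoothAt L hxy hu).continuousAt.eventually ((isOpen_dm L y z).mem_nhds hv)
  filter_upwards [h1, h2] with w hw1 hw2
  exact (tau_comp L hw1 hw2).2.symm

theorem fderiv_tau_comp {x y z : X} (hxy : L.em x = L.em y) (hyz : L.em y = L.em z) {u : E2}
    (hu : u ∈ L.dm x y) (hv : L.τ x y u ∈ L.dm y z) :
    fderiv ℝ (L.τ x z) u = (fderiv ℝ (L.τ y z) (L.τ x y u)).comp (fderiv ℝ (L.τ x y) u) := by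
  rw [(tau_comp_eventually L hxy hu hv).fderiv_eq]
  exact ((tau_hasFDerivAt L hyz hv).comp u (tau_hasFDerivAt L hxy hu)).fderiv

theorem det_comp (A C : E2 →L[ℝ] E2) : (A.comp C).det = A.det * C.det := by
  simp [ContinuousLinearMap.det]

theorem det_tau_comp {x y z : X} (hxy : L.em x = L.em y) (hyz : L.em y = L.em z) {u : E2}
    (hu : u ∈ L.dm x y) (hv : L.τ x y u ∈ L.dm y z) :
    (fderiv ℝ (L.τ x z) u).det =
      (fderiv ℝ (L.τ y z) (L.τ x y u)).det * (fderiv ℝ (L.τ x y) u).det := by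
  rw [fderiv_tau_comp L hxy hyz hu hv, det_comp]

theorem fderiv_tau_inv {x y : X} (h : L.em x = L.em y) {u : E2} (hu : u ∈ L.dm x y) :
    (fderiv ℝ (L.τ y x) (L.τ x y u)).comp (fderiv ℝ (L.τ x y) u) =
      ContinuousLinearMap.id ℝ E2 := by
  have h1 : ∀ᶠ w in 𝓝 u, L.τ y x (L.τ x y w) = w := by
    filter_upwards [(isOpen_dm L x y).mem_nhds hu] with w hw
    exact tau_tau L hw
  have h2 := (tau_hasFDerivAt L h.symm (tau_mem_dm L hu)).comp u (tau_hasFDerivAt L h hu)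
  have h3 : HasFDerivAt (fun w => L.τ y x (L.τ x y w)) (ContinuousLinearMap.id ℝ E2) u :=
    (hasFDerivAt_id u).congr_of_eventuallyEq h1
  exact h2.unique h3

theorem det_ne_zero {x y : X} (h : L.em x = L.em y) {u : E2} (hu : u ∈ L.dm x y) :
    (fderiv ℝ (L.τ x y) u).det ≠ 0 := by
  intro h0
  have h1 := congrArg ContinuousLinearMap.det (fderiv_tau_inv L h hu)
  rw [det_comp, h0, mul_zero] at h1
  simp [ContinuousLinearMap.det] at h1

/-! ### Invariance -/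

theorem mem_dm_smul {g : Γ} {x y : X} {u : E2} (hu : u ∈ L.dm x y) :
    u ∈ L.dm (g • x) (g • y) := by
  refine mem_dm_of L hu.1 (tau_mem L hu) ?_
  rw [L.e_smul g x u (ball_sub hu.1), L.e_smul g y _ (ball_sub (tau_mem L hu)), e_tau L hu]

theorem tau_smul {g : Γ} {x y : X} {u : E2} (hu : u ∈ L.dm x y) :
    L.τ (g • x) (g • y) u = L.τ x y u := by
  refine tau_of L (ball_sub (tau_mem L hu)) ?_
  rw [L.e_smul g x u (ball_sub hu.1), L.e_smul g y _ (ball_sub (tau_mem L hu)), e_tau L hu]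

theorem tau_smul_eventually {g : Γ} {x y : X} {u : E2} (hu : u ∈ L.dm x y) :
    L.τ (g • x) (g • y) =ᶠ[𝓝 u] L.τ x y := by
  filter_upwards [(isOpen_dm L x y).mem_nhds hu] with w hw
  exact tau_smul L hw

/-! ### The joint family -/

/-- pairs of frames of the same leaf -/
abbrev Pr : Type := {p : X × X // L.em p.1 = L.em p.2}

theorem jc_tau : JC (P := Pr L) {p | p.2 ∈ L.dm p.1.1.1 p.1.1.2}
    (fun p => L.τ p.1.1 p.1.2) := by
  refine ⟨fun p hp => tau_smoothAt L p.1.2 hp, fun k => ?_⟩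
  exact (L.tau_cont k).comp (f := fun p : Pr L × E2 => ((p.1.1, p.2) : (X × X) × E2))
    (by fun_prop) (fun p hp => ⟨p.1.2, hp⟩)

/-! ### Past maps -/

/-- the transition map to the chart at `φ (-t) x` -/
def pm (t : ℝ) (x : X) : E2 → E2 := L.τ x (L.φ (-t) x)

theorem em_back (t : ℝ) (x : X) : L.em x = L.em (L.φ (-t) x) := (L.em_φ _ _).symm

theorem φ_back (t : ℝ) (x : X) : L.φ t (L.φ (-t) x) = x := by
  rw [← L.φ_add, add_neg_cancel, L.φ_zero]

theorem mem_dm_back {t : ℝ} (ht : L.t1 ≤ t) (x : X) {u : E2} (hu : u ∈ ball (0 : E2) 3) :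
    u ∈ L.dm x (L.φ (-t) x) := by
  have h1 := L.engulf (L.φ (-t) x) t ht
  rw [φ_back] at h1
  obtain ⟨v, hv, hv2⟩ := h1 (mem_image_of_mem _ (ball_sub hu))
  exact ⟨hu, v, ball_subset_ball (by norm_num) hv, hv2⟩

theorem pm_mem {t : ℝ} (ht : L.t1 ≤ t) (x : X) {u : E2} (hu : u ∈ ball (0 : E2) 3) :
    pm L t x u ∈ ball (0 : E2) 1 := by
  have h1 := L.engulf (L.φ (-t) x) t ht
  rw [φ_back] at h1
  obtain ⟨v, hv, hv2⟩ := h1 (mem_image_of_mem _ (ball_sub hu))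
  have h2 : pm L t x u = v :=
    tau_of L (ball_sub (ball_subset_ball (by norm_num) hv)) hv2.symm
  rw [h2]
  exact hv

theorem e_pm {t : ℝ} (ht : L.t1 ≤ t) (x : X) {u : E2} (hu : u ∈ ball (0 : E2) 3) :
    L.e (L.φ (-t) x) (pm L t x u) = L.e x u := e_tau L (mem_dm_back L ht x hu)

theorem zero_mem3 : (0 : E2) ∈ ball (0 : E2) 3 := mem_ball_self (by norm_num)

theorem pm_zero (t : ℝ) (x : X) : pm L t x 0 = 0 := by
  refine tau_of L (ball_sub zero_mem3) ?_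
  rw [L.e_zero, L.e_zero, L.ep_φ]

theorem zero_mem_dm_back (t : ℝ) (x : X) : (0 : E2) ∈ L.dm x (L.φ (-t) x) := by
  refine mem_dm_of L zero_mem3 zero_mem3 ?_
  rw [L.e_zero, L.e_zero, L.ep_φ]

theorem jc_pm {t : ℝ} (ht : L.t1 ≤ t) : JC ((univ : Set X) ×ˢ ball (0 : E2) 3) (pm L t) := by
  have h1 : Continuous fun x : X => (⟨(x, L.φ (-t) x), em_back L t x⟩ : Pr L) :=
    Continuous.subtype_mk (continuous_id.prodMk (L.φ_cont' (-t))) _
  exact (jc_tau L).param h1 fun p hp => mem_dm_back L ht p.1 hp.2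

theorem contract' (k : ℕ) (hk : 1 ≤ k) : ∃ C : ℝ, 1 ≤ C ∧ ∀ x, ∀ t ≥ L.t1, ∀ u ∈ ball (0 : E2) 3,
    ‖iteratedFDeriv ℝ k (pm L t x) u‖ ≤ C * Real.exp (-L.χ * t) := by
  obtain ⟨C, hC⟩ := L.contract k hk
  refine ⟨max C 1, le_max_right _ _, fun x t ht u hu => ?_⟩
  have h1 := hC (L.φ (-t) x) t ht u hu
  rw [φ_back] at h1
  refine h1.trans ?_
  gcongr
  exact le_max_left _ _

/-- all derivatives of order between 1 and `k` -/
theorem contract_all (k : ℕ) : ∃ C : ℝ, 1 ≤ C ∧ ∀ j, 1 ≤ j → j ≤ k → ∀ x, ∀ t ≥ L.t1,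
    ∀ u ∈ ball (0 : E2) 3, ‖iteratedFDeriv ℝ j (pm L t x) u‖ ≤ C * Real.exp (-L.χ * t) := by
  induction k with
  | zero => exact ⟨1, le_rfl, fun j h1 h2 => by omega⟩
  | succ k ih =>
    obtain ⟨C, hC, h⟩ := ih
    obtain ⟨C', hC', h'⟩ := contract' L (k + 1) (by omega)
    refine ⟨max C C', hC.trans (le_max_left _ _), fun j hj1 hj2 x t ht u hu => ?_⟩
    rcases Nat.lt_or_ge k j with hj | hj
    · have : j = k + 1 := by omega
      subst this
      refine (h' x t ht u hu).trans ?_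
      gcongr
      exact le_max_right _ _
    · refine (h j hj1 hj x t ht u hu).trans ?_
      gcongr
      exact le_max_left _ _

theorem pm_small : ∃ C : ℝ, 1 ≤ C ∧ ∀ x, ∀ t ≥ L.t1, ∀ u ∈ ball (0 : E2) 3,
    ‖pm L t x u‖ ≤ C * Real.exp (-L.χ * t) := by
  obtain ⟨C, hC, h⟩ := contract' L 1 le_rfl
  refine ⟨C * 3, by nlinarith, fun x t ht u hu => ?_⟩
  have hd : ∀ w ∈ ball (0 : E2) 3, HasFDerivWithinAt (pm L t x) (fderiv ℝ (pm L t x) w)
      (ball 0 3) w := fun w hw =>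
    (tau_hasFDerivAt L (em_back L t x) (mem_dm_back L ht x hw)).hasFDerivWithinAt
  have hb : ∀ w ∈ ball (0 : E2) 3, ‖fderiv ℝ (pm L t x) w‖ ≤ C * Real.exp (-L.χ * t) := by
    intro w hw
    have := h x t ht w hw
    rwa [norm_iteratedFDeriv_one] at this
  have h1 := (convex_ball (0 : E2) 3).norm_image_sub_le_of_norm_hasFDerivWithin_le hd hb
    zero_mem3 hu
  rw [pm_zero, sub_zero, sub_zero] at h1
  refine h1.trans ?_
  have h2 : ‖u‖ ≤ 3 := (mem_ball_zero_iff.mp hu).le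
  calc C * Real.exp (-L.χ * t) * ‖u‖ ≤ C * Real.exp (-L.χ * t) * 3 := by gcongr
    _ = C * 3 * Real.exp (-L.χ * t) := by ring

theorem pm_pm {s t : ℝ} (hs : L.t1 ≤ s) (ht : L.t1 ≤ t) (x : X) {u : E2}
    (hu : u ∈ ball (0 : E2) 3) :
    pm L t (L.φ (-s) x) (pm L s x u) = pm L (s + t) x u := by
  have h1 : L.φ (-t) (L.φ (-s) x) = L.φ (-(s + t)) x := by
    rw [← L.φ_add]; congr 1; ring
  have h2 := (tau_comp L (mem_dm_back L hs x hu) (z := L.φ (-t) (L.φ (-s) x))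
    (mem_dm_back L ht (L.φ (-s) x) (ball_subset_ball (by norm_num) (pm_mem L hs x hu)))).2
  unfold pm
  rw [h1] at h2 ⊢
  exact h2

/-! ### Compactness modulo the group -/

include L in
theorem bdd_of_inv {W : Type*} [NormedAddCommGroup W] {f : X → E2 → W} {r : ℝ} (hr : r < 3)
    (hf : ContinuousOn (fun p : X × E2 => f p.1 p.2) (univ ×ˢ ball 0 3))
    (hi : ∀ (g : Γ) x, ∀ u ∈ ball (0 : E2) 3, f (g • x) u = f x u) :
    ∃ C : ℝ, 0 < C ∧ ∀ x, ∀ u ∈ closedBall (0 : E2) r, ‖f x u‖ ≤ C := by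
  obtain ⟨K, hK, hcov⟩ := L.cocompact
  have h1 : IsCompact (K ×ˢ closedBall (0 : E2) r) := hK.prod (isCompact_closedBall 0 r)
  have hsub : K ×ˢ closedBall (0 : E2) r ⊆ univ ×ˢ ball 0 3 :=
    prod_mono (subset_univ _) (closedBall_subset_ball hr)
  obtain ⟨C, hC⟩ := h1.exists_bound_of_continuousOn (hf.mono hsub)
  refine ⟨max C 1, by positivity, fun x u hu => ?_⟩
  obtain ⟨g, hg⟩ := hcov x
  rw [← hi g x u (closedBall_subset_ball hr hu)]
  exact (hC (g • x, u) ⟨hg, hu⟩).trans (le_max_left _ _)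

end Vale.Agent.P207.N4.H646
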