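import Vale.Agent.P207.N4.Dim
import Vale.Agent.P207.N4.H646.TauB

/-!
Line N3 of P207, package P2, part (i): the densities of the Margulis areas.
-/

open Set Filter Topology Metric MeasureTheory
open scoped ContDiff

noncomputable section

namespace Vale.Agent.P207.N4.H646

open Vale.Agent.P207.N3 Vale.Agent.P207.N3.H646

variable [Dim]

set_option linter.unusedSectionVars false

variable {Γ X B : Type} [Group Γ] [MetricSpace X] [ProperSpace X] [MulAction Γ X]
  [IsIsometricSMul Γ X] [TopologicalSpace B] [CompactSpace B] [T2Space B] [MulAction Γ B]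
  [ContinuousConstSMul Γ B]

variable (L : Leaf Γ X B)

/-! ### The logarithm of the Jacobian -/

theorem contDiff_det : ContDiff ℝ ∞ (fun A : E2 →L[ℝ] E2 => A.det) := by
  have h1 : ∀ A : E2 →L[ℝ] E2, A.det =
      (LinearMap.toMatrix (EuclideanSpace.basisFun (Fin Dim.m) ℝ).toBasis
        (EuclideanSpace.basisFun (Fin Dim.m) ℝ).toBasis (A : E2 →ₗ[ℝ] E2)).det := by
    intro A
    rw [ContinuousLinearMap.det, LinearMap.det_toMatrix]
  have h2 : ∀ i j, ContDiff ℝ ∞ fun A : E2 →L[ℝ] E2 =>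
      LinearMap.toMatrix (EuclideanSpace.basisFun (Fin Dim.m) ℝ).toBasis
        (EuclideanSpace.basisFun (Fin Dim.m) ℝ).toBasis (A : E2 →ₗ[ℝ] E2) i j := by
    intro i j
    have h3 : ∀ A : E2 →L[ℝ] E2,
        LinearMap.toMatrix (EuclideanSpace.basisFun (Fin Dim.m) ℝ).toBasis
        (EuclideanSpace.basisFun (Fin Dim.m) ℝ).toBasis (A : E2 →ₗ[ℝ] E2) i j =
        A (EuclideanSpace.single j 1) i := by
      intro A
      simp [LinearMap.toMatrix_apply]
    simp_rw [h3]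
    have h4 : ContDiff ℝ ∞ fun A : E2 →L[ℝ] E2 => A (EuclideanSpace.single j (1 : ℝ)) :=
      (ContinuousLinearMap.apply ℝ E2 (EuclideanSpace.single j (1 : ℝ))).contDiff
    exact contDiff_euclidean.mp h4 i
  simp_rw [h1, Matrix.det_apply']
  exact ContDiff.sum fun σ _ => contDiff_const.mul (contDiff_prod fun i _ => h2 (σ i) i)

theorem isOpen_det : IsOpen {A : E2 →L[ℝ] E2 | A.det ≠ 0} :=
  isOpen_ne.preimage contDiff_det.continuous

theorem smooth_logdet :
    ContDiffOn ℝ ∞ (fun A : E2 →L[ℝ] E2 => Real.log A.det) {A | A.det ≠ 0} := fun _ hA =>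
  (contDiff_det.contDiffAt.log hA).contDiffWithinAt

/-- logarithm of the Jacobian of the first past map -/
def ell (x : X) (v : E2) : ℝ := Real.log (fderiv ℝ (pm L L.t1 x) v).det

theorem jc_ell : JC ((univ : Set X) ×ˢ ball (0 : E2) 3) (ell L) := by
  have h1 := JC.post (g := fun A : E2 →L[ℝ] E2 => Real.log A.det) isOpen_det
    (jc_pm L le_rfl).fderiv smooth_logdet
    (fun p hp => det_ne_zero L (em_back L _ p.1) (mem_dm_back L le_rfl p.1 hp.2))
  exact h1

theorem pm_smul_eventually {t : ℝ} (ht : L.t1 ≤ t) (g : Γ) (x : X) {u : E2}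
    (hu : u ∈ ball (0 : E2) 3) : pm L t (g • x) =ᶠ[𝓝 u] pm L t x := by
  have h := tau_smul_eventually L (g := g) (mem_dm_back L ht x hu)
  unfold pm
  rw [L.φ_smul]
  exact h

theorem ell_smul_eventually (g : Γ) (x : X) {u : E2} (hu : u ∈ ball (0 : E2) 3) :
    ell L (g • x) =ᶠ[𝓝 u] ell L x := by
  filter_upwards [isOpen_ball.mem_nhds hu] with w hw
  unfold ell
  rw [(pm_smul_eventually L le_rfl g x hw).fderiv_eq]

theorem ell_bdd (k : ℕ) : ∃ C : ℝ, 0 < C ∧ ∀ j ≤ k, ∀ x, ∀ v ∈ closedBall (0 : E2) 1,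
    ‖iteratedFDeriv ℝ j (ell L x) v‖ ≤ C := by
  have h1 : ∀ j : ℕ, ∃ C : ℝ, 0 < C ∧ ∀ x, ∀ v ∈ closedBall (0 : E2) 1,
      ‖iteratedFDeriv ℝ j (ell L x) v‖ ≤ C := by
    intro j
    refine bdd_of_inv L (by norm_num) ((jc_ell L).cont j) fun g x u hu => ?_
    exact (Filter.EventuallyEq.iteratedFDeriv ℝ (ell_smul_eventually L g x hu) j).eq_of_nhds
  choose C hC0 hC using h1
  refine ⟨∑ j ∈ Finset.range (k + 1), C j,
    Finset.sum_pos (fun j _ => hC0 j) ⟨0, by simp⟩, fun j hj x v hv => ?_⟩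
  refine (hC j x v hv).trans ?_
  exact Finset.single_le_sum (f := C) (fun i _ => (hC0 i).le) (by simp; omega)

theorem pm_det_ne {t : ℝ} {x : X} {u : E2} (hu : u ∈ L.dm x (L.φ (-t) x)) :
    (fderiv ℝ (pm L t x) u).det ≠ 0 := det_ne_zero L (em_back L _ x) hu

/-! ### The series -/

/-- the times `(i + 1) t1` -/
def tt (i : ℕ) : ℝ := ((i : ℝ) + 1) * L.t1

theorem t1_le_tt (i : ℕ) : L.t1 ≤ tt L i := by
  have := L.t1_pos
  unfold tt
  nlinarith [Nat.cast_nonneg (α := ℝ) i]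

theorem tt_succ (i : ℕ) : tt L (i + 1) = tt L i + L.t1 := by
  unfold tt; push_cast; ring

/-- the terms of the series -/
def tm (i : ℕ) (x : X) (u : E2) : ℝ :=
  ell L (L.φ (-tt L i) x) (pm L (tt L i) x u) - ell L (L.φ (-tt L i) x) 0

theorem jc_comp (i : ℕ) : JC ((univ : Set X) ×ˢ ball (0 : E2) 3)
    (fun x u => ell L (L.φ (-tt L i) x) (pm L (tt L i) x u)) :=
  (jc_pm L (t1_le_tt L i)).comp (jc_ell L) (L.φ_cont' _) fun p hp =>
    ⟨trivial, ball_subset_ball (by norm_num) (pm_mem L (t1_le_tt L i) p.1 hp.2)⟩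

theorem jc_tm (i : ℕ) : JC ((univ : Set X) ×ˢ ball (0 : E2) 3) (tm L i) := by
  refine (jc_comp L i).sub (JC.of_param ?_)
  have h1 : ContinuousOn (fun p : X × E2 => ell L p.1 p.2) (univ ×ˢ ball 0 3) :=
    (jc_ell L).continuousOn
  exact h1.comp (f := fun x : X => (L.φ (-tt L i) x, (0 : E2)))
    ((L.φ_cont' _).prodMk continuous_const).continuousOn fun x _ => ⟨trivial, zero_mem3⟩

theorem exp_tt (i : ℕ) : Real.exp (-L.χ * tt L i) = Real.exp (-L.χ * L.t1) ^ (i + 1) := by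
  rw [← Real.exp_nat_mul]
  congr 1
  unfold tt
  push_cast
  ring

theorem tm_bdd_zero : ∃ C : ℝ, 0 ≤ C ∧ ∀ i x, ∀ u ∈ ball (0 : E2) 3,
    ‖iteratedFDeriv ℝ 0 (tm L i x) u‖ ≤ C * Real.exp (-L.χ * L.t1) ^ (i + 1) := by
  obtain ⟨C1, hC1, h1⟩ := ell_bdd L 1
  obtain ⟨C2, hC2, h2⟩ := pm_small L
  refine ⟨C1 * C2, by positivity, fun i x u hu => ?_⟩
  rw [norm_iteratedFDeriv_zero]
  have hd : ∀ w ∈ ball (0 : E2) 1, HasFDerivWithinAt (ell L (L.φ (-tt L i) x))
      (fderiv ℝ (ell L (L.φ (-tt L i) x)) w) (ball 0 1) w := fun w hw =>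
    (((jc_ell L).smooth (L.φ (-tt L i) x, w)
      ⟨trivial, ball_subset_ball (by norm_num) hw⟩).differentiableAt
        (by simp)).hasFDerivAt.hasFDerivWithinAt
  have hb : ∀ w ∈ ball (0 : E2) 1, ‖fderiv ℝ (ell L (L.φ (-tt L i) x)) w‖ ≤ C1 := by
    intro w hw
    have := h1 1 le_rfl (L.φ (-tt L i) x) w (ball_subset_closedBall hw)
    rwa [norm_iteratedFDeriv_one] at this
  have h3 := (convex_ball (0 : E2) 1).norm_image_sub_le_of_norm_hasFDerivWithin_le hd hb
    (mem_ball_self one_pos) (pm_mem L (t1_le_tt L i) x hu)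
  rw [sub_zero] at h3
  refine h3.trans ?_
  have h4 := h2 x (tt L i) (t1_le_tt L i) u hu
  rw [exp_tt] at h4
  calc C1 * ‖pm L (tt L i) x u‖ ≤ C1 * (C2 * Real.exp (-L.χ * L.t1) ^ (i + 1)) := by gcongr
    _ = _ := by ring

theorem tm_bdd (k : ℕ) : ∃ C : ℝ, 0 ≤ C ∧ ∀ i x, ∀ u ∈ ball (0 : E2) 3,
    ‖iteratedFDeriv ℝ k (tm L i x) u‖ ≤ C * Real.exp (-L.χ * L.t1) ^ (i + 1) := by
  rcases Nat.eq_zero_or_pos k with rfl | hk
  · exact tm_bdd_zero L
  obtain ⟨C1, hC1, h1⟩ := ell_bdd L k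
  obtain ⟨C2, hC2, h2⟩ := contract_all L k
  refine ⟨k.factorial * C1 * C2 ^ k, by positivity, fun i x u hu => ?_⟩
  set q : ℝ := Real.exp (-L.χ * L.t1) ^ (i + 1) with hq
  have hq0 : 0 < q := by positivity
  have hq1 : q ≤ 1 := by
    refine pow_le_one₀ (by positivity) ?_
    rw [Real.exp_le_one_iff]
    have := L.χ_pos; have := L.t1_pos
    nlinarith [mul_pos L.χ_pos L.t1_pos]
  -- the `k`-th root of `q`
  set D : ℝ := C2 * q ^ (1 / (k : ℝ)) with hD
  have hk0 : (0 : ℝ) < k := by exact_mod_cast hk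
  have hroot : (q ^ (1 / (k : ℝ))) ^ k = q := by
    rw [← Real.rpow_natCast, ← Real.rpow_mul hq0.le]
    rw [one_div, inv_mul_cancel₀ hk0.ne', Real.rpow_one]
  have hr1 : q ^ (1 / (k : ℝ)) ≤ 1 := Real.rpow_le_one hq0.le hq1 (by positivity)
  have hr0 : 0 < q ^ (1 / (k : ℝ)) := Real.rpow_pos_of_pos hq0 _
  have hsub : ∀ w ∈ ball (0 : E2) 3, pm L (tt L i) x w ∈ ball (0 : E2) 3 := fun w hw =>
    ball_subset_ball (by norm_num) (pm_mem L (t1_le_tt L i) x hw)
  have hmain : ‖iteratedFDerivWithin ℝ k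
      (ell L (L.φ (-tt L i) x) ∘ pm L (tt L i) x) (ball 0 3) u‖ ≤
      k.factorial * C1 * D ^ k := by
    refine norm_iteratedFDerivWithin_comp_le (t := ball (0 : E2) 3) (N := ∞) (fun w hw => ?_)
      (fun w hw => ?_) (by exact_mod_cast le_top) isOpen_ball.uniqueDiffOn
      isOpen_ball.uniqueDiffOn hsub hu (fun j hj => ?_) (fun j hj1 hj2 => ?_)
    · exact ((jc_ell L).smooth (L.φ (-tt L i) x, w) ⟨trivial, hw⟩).contDiffWithinAt
    · exact ((jc_pm L (t1_le_tt L i)).smooth (x, w) ⟨trivial, hw⟩).contDiffWithinAt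
    · rw [iteratedFDerivWithin_of_isOpen j isOpen_ball (hsub u hu)]
      exact h1 j hj _ _ (ball_subset_closedBall (pm_mem L (t1_le_tt L i) x hu))
    · rw [iteratedFDerivWithin_of_isOpen j isOpen_ball hu]
      refine (h2 j hj1 hj2 x (tt L i) (t1_le_tt L i) u hu).trans ?_
      rw [exp_tt, ← hq, hD, mul_pow]
      have e1 : C2 ≤ C2 ^ j := le_self_pow₀ hC2 (by omega)
      have e2 : q ≤ (q ^ (1 / (k : ℝ))) ^ j := by
        calc q = (q ^ (1 / (k : ℝ))) ^ k := hroot.symm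
          _ ≤ (q ^ (1 / (k : ℝ))) ^ j := pow_le_pow_of_le_one hr0.le hr1 hj2
      exact mul_le_mul e1 e2 hq0.le (by positivity)
  rw [iteratedFDerivWithin_of_isOpen k isOpen_ball hu] at hmain
  have heq : iteratedFDeriv ℝ k (tm L i x) u =
      iteratedFDeriv ℝ k (ell L (L.φ (-tt L i) x) ∘ pm L (tt L i) x) u := by
    have e1 : tm L i x = (ell L (L.φ (-tt L i) x) ∘ pm L (tt L i) x) +
        fun _ => -ell L (L.φ (-tt L i) x) 0 := by
      funext w
      simp [tm, sub_eq_add_neg]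
    rw [e1, iteratedFDeriv_add_apply]
    · rw [iteratedFDeriv_const_of_ne (Nat.pos_iff_ne_zero.mp hk)]
      simp
    · exact ((jc_comp L i).smooth (x, u) ⟨trivial, hu⟩).of_le (by exact_mod_cast le_top)
    · exact contDiffAt_const
  rw [heq]
  refine hmain.trans (le_of_eq ?_)
  rw [hD, mul_pow, hroot, hq]
  ring

/-- the sum of the series -/
def Fs (x : X) (u : E2) : ℝ := (ell L x u - ell L x 0) + ∑' i, tm L i x u

theorem summable_geo (C : ℝ) : Summable fun i : ℕ => C * Real.exp (-L.χ * L.t1) ^ (i + 1) := by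
  have h1 : Real.exp (-L.χ * L.t1) < 1 := by
    rw [Real.exp_lt_one_iff]
    nlinarith [mul_pos L.χ_pos L.t1_pos]
  have h2 := (summable_geometric_of_lt_one (Real.exp_pos _).le h1)
  exact ((summable_nat_add_iff 1).mpr h2).mul_left C

theorem jc_Fs : JC ((univ : Set X) ×ˢ ball (0 : E2) 3) (Fs L) := by
  choose C hC0 hC using tm_bdd L
  refine JC.add ((jc_ell L).sub (JC.of_param ?_)) ?_
  · have h1 : ContinuousOn (fun p : X × E2 => ell L p.1 p.2) (univ ×ˢ ball 0 3) :=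
      (jc_ell L).continuousOn
    exact h1.comp (f := fun x : X => (x, (0 : E2)))
      (continuous_id.prodMk continuous_const).continuousOn fun x _ => ⟨trivial, zero_mem3⟩
  · exact JC.tsum isOpen_ball (convex_ball (0 : E2) 3).isPreconnected (jc_tm L)
      (fun k => summable_geo L (C k)) (fun k i p u hu => hC k i p u hu)

theorem summable_tm (x : X) {u : E2} (hu : u ∈ ball (0 : E2) 3) : Summable fun i => tm L i x u := by
  obtain ⟨C, _, hC⟩ := tm_bdd_zero L
  refine Summable.of_norm_bounded (summable_geo L C) fun i => ?_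
  have := hC i x u hu
  rwa [norm_iteratedFDeriv_zero] at this

/-- logarithm of the Jacobian of a past map -/
def ld (N : ℕ) (x : X) (u : E2) : ℝ := Real.log (fderiv ℝ (pm L (tt L N) x) u).det

theorem tt_zero : tt L 0 = L.t1 := by simp [tt]

theorem φ_tt_succ (N : ℕ) (x : X) : L.φ (-L.t1) (L.φ (-tt L N) x) = L.φ (-tt L (N + 1)) x := by
  rw [← L.φ_add, tt_succ]; congr 1; ring

theorem ld_succ (N : ℕ) (x : X) {u : E2} (hu : u ∈ ball (0 : E2) 3) :
    ld L (N + 1) x u = ld L N x u + ell L (L.φ (-tt L N) x) (pm L (tt L N) x u) := by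
  have h0 := mem_dm_back L (t1_le_tt L N) x hu
  have h1 : pm L (tt L N) x u ∈ ball (0 : E2) 3 :=
    ball_subset_ball (by norm_num) (pm_mem L (t1_le_tt L N) x hu)
  have h2 := mem_dm_back L (le_refl L.t1) (L.φ (-tt L N) x) h1
  have h3 := det_tau_comp L (em_back L _ x) (em_back L _ _) h0 h2
  have h4 : (fderiv ℝ (pm L (tt L (N + 1)) x) u).det =
      (fderiv ℝ (pm L L.t1 (L.φ (-tt L N) x)) (pm L (tt L N) x u)).det *
        (fderiv ℝ (pm L (tt L N) x) u).det := by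
    rw [φ_tt_succ] at h3
    unfold pm
    rw [φ_tt_succ]
    exact h3
  unfold ld ell
  rw [h4, Real.log_mul (pm_det_ne L h2) (pm_det_ne L h0)]
  ring

theorem ld_sub (N : ℕ) (x : X) {u : E2} (hu : u ∈ ball (0 : E2) 3) :
    ld L N x u - ld L N x 0 = (ell L x u - ell L x 0) + ∑ i ∈ Finset.range N, tm L i x u := by
  induction N with
  | zero =>
    simp only [Finset.range_zero, Finset.sum_empty, add_zero]
    unfold ld ell
    rw [tt_zero]
  | succ N ih =>
    rw [ld_succ L N x hu, ld_succ L N x zero_mem3, Finset.sum_range_succ, pm_zero]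
    unfold tm at ih ⊢
    linarith

theorem ld_tendsto (x : X) {u : E2} (hu : u ∈ ball (0 : E2) 3) :
    Tendsto (fun N => ld L N x u - ld L N x 0) atTop (𝓝 (Fs L x u)) := by
  have h1 := (summable_tm L x hu).hasSum.tendsto_sum_nat
  have h2 := h1.const_add (ell L x u - ell L x 0)
  exact h2.congr fun N => (ld_sub L N x hu).symm

end Vale.Agent.P207.N4.H646
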