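import Vale.Agent.P207.N4.Dim
import Vale.Agent.P207.N4.H646.Dens2

/-!
Line N3 of P207, package P2-S: the densities of the Margulis areas from a continuous solution of
the cohomological equation (literal fields of `Area`).
-/

open Set Filter Topology Metric MeasureTheory
open scoped ContDiff

noncomputable section

namespace Vale.Agent.P207.N4.H646

open Vale.Agent.P207.N3 Vale.Agent.P207.N3.H646

variable [Dim]

set_option linter.unusedSectionVars false

variable {Γ X B : Type} [Group Γ] [MetricSpace X] [ProperSpace X] [MulAction Γ X]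
  [IsIsometricSMul Γ X] [TopologicalSpace B] [CompactSpace B] [T2Space B] [MulAction Γ B]
  [ContinuousConstSMul Γ B]

/-- **P2-S.** Densities of the Margulis areas. -/
theorem exists_dens {L : Leaf Γ X B} {ρ : X → ℝ} {h : ℝ} (hc : Coc L ρ h) :
    ∃ s : X → E2 → ℝ, (∀ x, s x 0 = Real.exp (ρ x)) ∧
      (∀ x, ∀ u ∈ ball (0 : E2) 3, 0 < s x u) ∧
      (∀ x, ContDiffOn ℝ ∞ (s x) (ball 0 3)) ∧
      (∀ k : ℕ, ContinuousOn (fun p : X × E2 => iteratedFDeriv ℝ k (s p.1) p.2)
        (univ ×ˢ ball 0 3)) ∧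
      (∀ (g : Γ) x, ∀ u ∈ ball (0 : E2) 3, s (g • x) u = s x u) ∧
      (∀ x y, L.em x = L.em y → ∀ u ∈ L.dm x y,
        s x u = Real.exp (h * (L.lv x - L.lv y)) * |(fderiv ℝ (L.τ x y) u).det| *
          s y (L.τ x y u)) :=
  ⟨dens L ρ, fun x => dens_zero ρ x, fun x u _ => dens_pos ρ x u,
    fun x u hu => ((jc_dens hc.cont).smooth (x, u) ⟨trivial, hu⟩).contDiffWithinAt,
    fun k => (jc_dens hc.cont).cont k, fun g x _ hu => dens_smul hc g x hu,
    fun _ _ hem _ hu => dens_trans hc hem hu⟩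

end Vale.Agent.P207.N4.H646
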